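import Mathlib

namespace Vale.Agent.P080

abbrev E (d : ℕ) := EuclideanSpace ℝ (Fin d)

/-- the infinity Laplacian: Hessian applied twice to the gradient -/
noncomputable def infLap {d : ℕ} (φ : E d → ℝ) (z : E d) : ℝ :=
  inner ℝ (fderiv ℝ (gradient φ) z (gradient φ z)) (gradient φ z)

/-- viscosity solutions of the infinity Laplace equation -/
def InfHarm {d : ℕ} (Ω : Set (E d)) (u : E d → ℝ) : Prop :=
  ContinuousOn u Ω ∧
    (∀ φ : E d → ℝ, ContDiff ℝ 2 φ → ∀ z ∈ Ω, IsLocalMax (fun x => u x - φ x) z → 0 ≤ infLap φ z) ∧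
    ∀ φ : E d → ℝ, ContDiff ℝ 2 φ → ∀ z ∈ Ω, IsLocalMin (fun x => u x - φ x) z → infLap φ z ≤ 0

/-- touched from below at every point of `B` by a paraboloid of opening `K` -/
def SemiConvex {d : ℕ} (B : Set (E d)) (K : ℝ) (u : E d → ℝ) : Prop :=
  ∀ x ∈ B, ∃ p : E d, ∀ y ∈ B, u x + inner ℝ p (y - x) - K / 2 * ‖y - x‖ ^ 2 ≤ u y

end Vale.Agent.P080
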