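import Vale.Agent.P080.Defs

namespace Vale.Agent.P080

/-- one-sided first order expansion with modulus `ω` at every point of `B` -/
def OneSided {d : ℕ} (B : Set (E d)) (ω : ℝ → ℝ) (u : E d → ℝ) : Prop :=
  ∀ x ∈ B, ∃ p : E d, ∀ y ∈ B, u x + inner ℝ p (y - x) - ω ‖y - x‖ * ‖y - x‖ ≤ u y

end Vale.Agent.P080
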