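import Vale.Agent.P080.Test

namespace Vale.Agent.P080

open Metric

variable {d : ℕ}

theorem pbound {u : E d → ℝ} {c x p : E d} {R K M : ℝ} (hR : 0 < R) (hK : 0 ≤ K)
    (hx : x ∈ ball c R)
    (hp : ∀ y ∈ ball c (2 * R), u x + inner ℝ p (y - x) - K / 2 * ‖y - x‖ ^ 2 ≤ u y)
    (hM : ∀ x ∈ ball c (2 * R), ∀ y ∈ ball c (2 * R), u y - u x ≤ M) : ‖p‖ ≤ M / R + K * R := by
  have hx2 : x ∈ ball c (2 * R) := ball_subset_ball (by linarith) hx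
  have hM0 : 0 ≤ M := by simpa using hM x hx2 x hx2
  rcases eq_or_lt_of_le (norm_nonneg p) with h | h
  · rw [← h]; positivity
  have hn : ‖(R / ‖p‖) • p‖ = R := by
    rw [norm_smul, Real.norm_eq_abs, abs_of_pos (by positivity)]; field_simp
  have hy : x + (R / ‖p‖) • p ∈ ball c (2 * R) := by
    rw [mem_ball, dist_eq_norm] at hx ⊢
    have := norm_add_le (x - c) ((R / ‖p‖) • p)
    rw [add_sub_right_comm]
    linarith
  have h1 := hp _ hy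
  have h2 := hM x hx2 _ hy
  rw [add_sub_cancel_left, hn, inner_smul_right, real_inner_self_eq_norm_sq] at h1
  have h3 : R / ‖p‖ * ‖p‖ ^ 2 = ‖p‖ * R := by field_simp
  have h4 : ‖p‖ - K * R ≤ M / R := by
    rw [le_div_iff₀ hR]
    nlinarith [mul_nonneg hK (sq_nonneg R)]
  linarith

theorem kink {u : E d → ℝ} {x0 x1 p0 p1 e y : E d} {K s ρ τ : ℝ} (hK : 0 ≤ K) (he : e = p1 - p0)
    (hs' : s = ‖x1 - x0‖) (hsρ : s ≤ ρ) (hyρ : ‖y - x0‖ ≤ ρ) (t1 : 1 / 4 ≤ τ) (t2 : τ ≤ 3 / 4)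
    (b0 : u x0 + inner ℝ p0 (y - x0) - K / 2 * ‖y - x0‖ ^ 2 ≤ u y)
    (b1 : u x1 + inner ℝ p1 (y - x1) - K / 2 * ‖y - x1‖ ^ 2 ≤ u y)
    (b2 : u x0 + inner ℝ p0 (x1 - x0) - K / 2 * ‖x1 - x0‖ ^ 2 ≤ u x1) :
    |inner ℝ e (y - x0)| / 4 - (‖e‖ * s + 5 / 2 * K * ρ ^ 2) ≤
      u y - u x0 - inner ℝ (p0 + τ • e) (y - x0) := by
  have hs0 : 0 ≤ s := by rw [hs']; exact norm_nonneg _
  have hyx : y - x1 = (y - x0) - (x1 - x0) := by abel
  have b3 : ‖y - x1‖ ≤ 2 * ρ := by rw [hyx]; linarith [norm_sub_le (y - x0) (x1 - x0)]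
  have b4 : inner ℝ e (x1 - x0) ≤ ‖e‖ * s := by rw [hs']; exact real_inner_le_norm _ _
  have hp1 : p1 = p0 + e := by rw [he]; abel
  have b5 : inner ℝ p1 (y - x1) = inner ℝ p0 (y - x0) + inner ℝ e (y - x0) -
      inner ℝ p0 (x1 - x0) - inner ℝ e (x1 - x0) := by
    rw [hyx, hp1, inner_sub_right _ (y - x0), inner_add_left, inner_add_left]; ring
  have q0 : K * ‖y - x0‖ ^ 2 ≤ K * ρ ^ 2 := by gcongr
  have q1 : K * ‖y - x1‖ ^ 2 ≤ K * (2 * ρ) ^ 2 := by gcongr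
  have q2 : K * s ^ 2 ≤ K * ρ ^ 2 := by gcongr
  have q3 : 0 ≤ ‖e‖ * s := by positivity
  have q4 : 0 ≤ K * ρ ^ 2 := by positivity
  rw [← hs'] at b2
  rw [inner_add_left, real_inner_smul_left]
  rcases abs_cases (inner ℝ e (y - x0)) with h | h
  · rw [h.1]; linarith [mul_nonneg (sub_nonneg.2 t2) h.2]
  · rw [h.1]; linarith [mul_nonneg (sub_nonneg.2 t1) (neg_nonneg.2 h.2.le)]

theorem num {a b N m β Q w : ℝ} (hb0 : 0 < b) (hbb : b ^ 2 ≤ 4) (hb3 : b ^ 3 ≤ 8) (hN : 0 < N)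
    (hab : a = b * N) (hm : m = b ^ 3 * N / 10 ^ 5) (hQ0 : 0 ≤ Q) (c1 : β ^ 2 ≤ 32 * m * a * Q ^ 2)
    (c2 : |β - w| ≤ a ^ 2 / 16 + 2 * m * a) (c3 : Q ≤ N + a / 16 + 2 * m) : |w| ≤ a ^ 2 / 7 := by
  have hb2 : b ≤ 2 := by nlinarith
  have haN : a ≤ 2 * N := by rw [hab]; exact mul_le_mul_of_nonneg_right hb2 hN.le
  have hmN : m ≤ N / 10000 := by
    rw [hm]; linarith [mul_le_mul_of_nonneg_right hb3 hN.le]
  have hQ : Q ^ 2 ≤ (2 * N) ^ 2 := pow_le_pow_left₀ hQ0 (by linarith) 2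
  have d1 : β ^ 2 ≤ (a ^ 2 / 16) ^ 2 := by
    have h1 := mul_le_mul_of_nonneg_left hQ (by rw [hab, hm]; positivity : 0 ≤ 32 * m * a)
    have h4 : 0 ≤ b ^ 4 * N ^ 4 := by positivity
    have h5 : 32 * m * a * (2 * N) ^ 2 = 128 / 10 ^ 5 * (b ^ 4 * N ^ 4) := by rw [hab, hm]; ring
    have h6 : (a ^ 2 / 16) ^ 2 = 1 / 256 * (b ^ 4 * N ^ 4) := by rw [hab]; ring
    linarith
  have d2 : |β| ≤ a ^ 2 / 16 := abs_le_of_sq_le_sq d1 (by positivity)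
  have d3 : m * a ≤ a ^ 2 / 1000 := by
    have h1 := mul_le_mul_of_nonneg_right hbb (by positivity : 0 ≤ b ^ 2 * N ^ 2)
    have h4 : 0 ≤ b ^ 2 * N ^ 2 := by positivity
    rw [hab, hm]
    linarith
  have d4 := abs_le.1 d2
  have d5 := abs_le.1 c2
  have d6 := sq_nonneg a
  rw [abs_le]
  constructor <;> linarith [d4.1, d4.2, d5.1, d5.2]

theorem holder {Ω : Set (E d)} {u : E d → ℝ} (hc : ContinuousOn u Ω)
    (hs : ∀ φ : E d → ℝ, ContDiff ℝ 2 φ → ∀ z ∈ Ω, IsLocalMin (fun x => u x - φ x) z →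
      infLap φ z ≤ 0) {c x0 x1 p0 p1 : E d} {R K N : ℝ} (hR : 0 < R) (hK : 0 ≤ K)
    (hΩ : ball c (2 * R) ⊆ Ω) (hx0 : x0 ∈ ball c R) (hx1 : x1 ∈ ball c R)
    (h0 : ∀ y ∈ ball c (2 * R), u x0 + inner ℝ p0 (y - x0) - K / 2 * ‖y - x0‖ ^ 2 ≤ u y)
    (h1 : ∀ y ∈ ball c (2 * R), u x1 + inner ℝ p1 (y - x1) - K / 2 * ‖y - x1‖ ^ 2 ≤ u y)
    (n0 : ‖p0‖ ≤ N) (n1 : ‖p1‖ ≤ N) (hKN : K * R ≤ N) :
    ‖p1 - p0‖ ^ 5 * R ≤ 10 ^ 12 * N ^ 5 * ‖x1 - x0‖ := by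
  by_contra hcon
  push Not at hcon
  obtain ⟨e, he⟩ : ∃ e, e = p1 - p0 := ⟨_, rfl⟩
  obtain ⟨s, hs'⟩ : ∃ s, s = ‖x1 - x0‖ := ⟨_, rfl⟩
  rw [← he, ← hs'] at hcon
  have hs0 : 0 ≤ s := by rw [hs']; exact norm_nonneg _
  have hN0 : 0 ≤ N := (norm_nonneg _).trans n0
  have ha2 : ‖e‖ ≤ 2 * N := by rw [he]; linarith [norm_sub_le p1 p0]
  have ha : 0 < ‖e‖ := by
    refine lt_of_le_of_ne (norm_nonneg _) fun h => ?_
    rw [← h] at hcon
    have : 0 ≤ 10 ^ 12 * N ^ 5 * s := by positivity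
    linarith
  have hN : 0 < N := by linarith
  obtain ⟨b, hb⟩ : ∃ b, b = ‖e‖ / N := ⟨_, rfl⟩
  have hab : ‖e‖ = b * N := by rw [hb]; field_simp
  have hb0 : 0 < b := by rw [hb]; positivity
  have hb2 : b ≤ 2 := by rw [hb, div_le_iff₀ hN]; exact ha2
  have hbb : b ^ 2 ≤ 4 := by nlinarith
  have hb3 : b ^ 3 ≤ 8 := by nlinarith
  have hsb : 10 ^ 12 * s < b ^ 5 * R := by
    rw [hab] at hcon
    refine lt_of_mul_lt_mul_left ?_ (pow_pos hN 5).le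
    linarith [mul_pow b N 5]
  obtain ⟨ρ, hρ⟩ : ∃ ρ, ρ = b ^ 3 * R / 10 ^ 6 := ⟨_, rfl⟩
  obtain ⟨m, hm⟩ : ∃ m, m = b ^ 3 * N / 10 ^ 5 := ⟨_, rfl⟩
  have hρ0 : 0 < ρ := by rw [hρ]; positivity
  have hm0 : 0 < m := by rw [hm]; positivity
  have hρR : ρ ≤ R := by rw [hρ]; linarith [mul_le_mul_of_nonneg_right hb3 hR.le]
  have hsρ : s ≤ ρ := by
    rw [hρ]
    linarith [mul_le_mul_of_nonneg_right hbb (by positivity : 0 ≤ b ^ 3 * R),
      (by positivity : 0 ≤ b ^ 3 * R)]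
  have hball : closedBall x0 ρ ⊆ ball c (2 * R) :=
    closedBall_subset_ball' (by rw [mem_ball] at hx0; linarith)
  have hδ : ‖e‖ * s + 5 / 2 * K * ρ ^ 2 < m * ρ := by
    have a1 : b * N * (10 ^ 12 * s) ≤ b * N * (b ^ 5 * R) :=
      mul_le_mul_of_nonneg_left hsb.le (by positivity)
    have a2 : K * R * (b ^ 6 * R) ≤ N * (b ^ 6 * R) :=
      mul_le_mul_of_nonneg_right hKN (by positivity)
    have a3 : 0 < N * (b ^ 6 * R) := by positivity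
    rw [hab, hρ, hm]
    linarith
  have key : ∀ τ : ℝ, 1 / 4 ≤ τ → τ ≤ 3 / 4 → |inner ℝ e (p0 + τ • e)| ≤ ‖e‖ ^ 2 / 7 := by
    intro τ t1 t2
    have hr : ‖p0 + τ • e‖ ≤ N := by
      have : p0 + τ • e = (1 - τ) • p0 + τ • p1 := by rw [he]; module
      rw [this]
      refine (norm_add_le _ _).trans ?_
      rw [norm_smul, norm_smul, Real.norm_eq_abs, Real.norm_eq_abs, abs_of_pos (by linarith),
        abs_of_pos (by linarith)]
      linarith [mul_le_mul_of_nonneg_left n0 (by linarith : 0 ≤ 1 - τ),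
        mul_le_mul_of_nonneg_left n1 (by linarith : 0 ≤ τ)]
    obtain ⟨β, Q, hQ0, c1, c2, c3⟩ := core (r := p0 + τ • e) hc hs hρ0 ha hm0 (hball.trans hΩ) hδ
      fun y hy => kink hK he hs' hsρ (by rwa [mem_closedBall, dist_eq_norm] at hy) t1 t2
        (h0 y (hball hy)) (h1 y (hball hy)) (h0 x1 (ball_subset_ball (by linarith) hx1))
    exact num hb0 hbb hb3 hN hab hm hQ0 c1 c2 (by linarith)
  have k1 := abs_le.1 (key (1 / 4) le_rfl (by norm_num))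
  have k2 := abs_le.1 (key (3 / 4) (by norm_num) le_rfl)
  rw [inner_add_right, inner_smul_right, real_inner_self_eq_norm_sq] at k1 k2
  have := pow_pos ha 2
  linarith [k1.1, k2.2]

theorem main {Ω : Set (E d)} {u : E d → ℝ} (hc : ContinuousOn u Ω)
    (hs : ∀ φ : E d → ℝ, ContDiff ℝ 2 φ → ∀ z ∈ Ω, IsLocalMin (fun x => u x - φ x) z →
      infLap φ z ≤ 0) {c : E d} {R K M : ℝ} (hR : 0 < R) (hK : 0 ≤ K)
    (hΩ : ball c (2 * R) ⊆ Ω) (hsc : SemiConvex (ball c (2 * R)) K u)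
    (hM : ∀ x ∈ ball c (2 * R), ∀ y ∈ ball c (2 * R), u y - u x ≤ M) :
    ∃ p : E d → E d, (∀ x ∈ ball c R, HasGradientAt u (p x) x) ∧ ∀ x ∈ ball c R, ∀ y ∈ ball c R,
      ‖p x - p y‖ ^ 5 * R ≤ 10 ^ 12 * (M / R + K * R) ^ 5 * ‖x - y‖ := by
  choose! p hp using hsc
  have hsub : ball c R ⊆ ball c (2 * R) := ball_subset_ball (by linarith)
  have hM0 : 0 ≤ M := by simpa using hM c (mem_ball_self (by linarith)) c (mem_ball_self (by linarith))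
  have hH : ∀ x ∈ ball c R, ∀ y ∈ ball c R,
      ‖p x - p y‖ ^ 5 * R ≤ 10 ^ 12 * (M / R + K * R) ^ 5 * ‖x - y‖ := fun x hx y hy =>
    holder hc hs hR hK hΩ hy hx (hp y (hsub hy)) (hp x (hsub hx))
      (pbound hR hK hy (hp y (hsub hy)) hM) (pbound hR hK hx (hp x (hsub hx)) hM)
      (le_add_of_nonneg_left (by positivity))
  refine ⟨p, fun x hx => ?_, hH⟩
  rw [hasGradientAt_iff_isLittleO, Asymptotics.isLittleO_iff]
  intro ε hε
  have e1 : ∀ᶠ y in nhds x, 10 ^ 12 * (M / R + K * R) ^ 5 * ‖y - x‖ < (ε / 2) ^ 5 * R :=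
    ContinuousAt.eventually_lt (by fun_prop) continuousAt_const (by simp; positivity)
  have e2 : ∀ᶠ y in nhds x, K / 2 * ‖y - x‖ < ε / 2 :=
    ContinuousAt.eventually_lt (by fun_prop) continuousAt_const (by simp; positivity)
  filter_upwards [e1, e2, isOpen_ball.mem_nhds hx] with y h1 h2 hy
  have h3 : ‖p y - p x‖ < ε / 2 := lt_of_pow_lt_pow_left₀ 5 (by positivity)
    (lt_of_mul_lt_mul_right ((hH y hy x hx).trans_lt h1) hR.le)
  have h4 := hp x (hsub hx) y (hsub hy)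
  have h5 := hp y (hsub hy) x (hsub hx)
  have h6 := real_inner_le_norm (p y - p x) (y - x)
  rw [inner_sub_left] at h6
  rw [← neg_sub y x, inner_neg_right, norm_neg] at h5
  have h7 := norm_nonneg (y - x)
  have h8 := mul_le_mul_of_nonneg_right h2.le h7
  have h9 := mul_le_mul_of_nonneg_right h3.le h7
  rw [Real.norm_eq_abs, abs_le]
  constructor <;> nlinarith

theorem infLap_neg (φ : E d → ℝ) (z : E d) : infLap (fun x => -φ x) z = -infLap φ z := by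
  have h : gradient (fun x => -φ x) = fun x => -gradient φ x := by
    funext x
    simp only [gradient, fderiv_fun_neg, map_neg]
  simp only [infLap, h, fderiv_fun_neg, ContinuousLinearMap.neg_apply, map_neg, neg_neg,
    inner_neg_right]

end Vale.Agent.P080
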