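import Vale.Agent.P080.Main
import Vale.Agent.P080.Defs2

namespace Vale.Agent.P080

open Metric

variable {d : ℕ}

theorem pbound2 {u : E d → ℝ} {c x p : E d} {R M : ℝ} {ω : ℝ → ℝ} (hR : 0 < R) (hK : 0 ≤ ω R)
    (hx : x ∈ ball c R)
    (hp : ∀ y ∈ ball c (2 * R), u x + inner ℝ p (y - x) - ω ‖y - x‖ * ‖y - x‖ ≤ u y)
    (hM : ∀ x ∈ ball c (2 * R), ∀ y ∈ ball c (2 * R), u y - u x ≤ M) : ‖p‖ ≤ M / R + ω R := by
  have hx2 : x ∈ ball c (2 * R) := ball_subset_ball (by linarith) hx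
  have hM0 : 0 ≤ M := by simpa using hM x hx2 x hx2
  rcases eq_or_lt_of_le (norm_nonneg p) with h | h
  · rw [← h]; positivity
  have hn : ‖(R / ‖p‖) • p‖ = R := by
    rw [norm_smul, Real.norm_eq_abs, abs_of_pos (by positivity)]; field_simp
  have hy : x + (R / ‖p‖) • p ∈ ball c (2 * R) := by
    rw [mem_ball, dist_eq_norm] at hx ⊢
    have := norm_add_le (x - c) ((R / ‖p‖) • p)
    rw [add_sub_right_comm]
    linarith
  have h1 := hp _ hy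
  have h2 := hM x hx2 _ hy
  rw [add_sub_cancel_left, hn, inner_smul_right, real_inner_self_eq_norm_sq] at h1
  have h3 : R / ‖p‖ * ‖p‖ ^ 2 = ‖p‖ * R := by field_simp
  have h4 : ‖p‖ - ω R ≤ M / R := by
    rw [le_div_iff₀ hR]
    linarith
  linarith

theorem kink2 {u : E d → ℝ} {x0 x1 p0 p1 e y : E d} {s ρ τ : ℝ} {ω : ℝ → ℝ}
    (hω : MonotoneOn ω (Set.Ici 0)) (hω0 : ω 0 = 0) (he : e = p1 - p0)
    (hs' : s = ‖x1 - x0‖) (hsρ : s ≤ ρ) (hyρ : ‖y - x0‖ ≤ ρ) (t1 : 1 / 4 ≤ τ) (t2 : τ ≤ 3 / 4)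
    (b0 : u x0 + inner ℝ p0 (y - x0) - ω ‖y - x0‖ * ‖y - x0‖ ≤ u y)
    (b1 : u x1 + inner ℝ p1 (y - x1) - ω ‖y - x1‖ * ‖y - x1‖ ≤ u y)
    (b2 : u x0 + inner ℝ p0 (x1 - x0) - ω ‖x1 - x0‖ * ‖x1 - x0‖ ≤ u x1) :
    |inner ℝ e (y - x0)| / 4 - (‖e‖ * s + 3 * (ω (2 * ρ) * ρ)) ≤
      u y - u x0 - inner ℝ (p0 + τ • e) (y - x0) := by
  have hs0 : 0 ≤ s := by rw [hs']; exact norm_nonneg _
  have hyx : y - x1 = (y - x0) - (x1 - x0) := by abel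
  have b3 : ‖y - x1‖ ≤ 2 * ρ := by rw [hyx]; linarith [norm_sub_le (y - x0) (x1 - x0)]
  have b4 : inner ℝ e (x1 - x0) ≤ ‖e‖ * s := by rw [hs']; exact real_inner_le_norm _ _
  have hp1 : p1 = p0 + e := by rw [he]; abel
  have b5 : inner ℝ p1 (y - x1) = inner ℝ p0 (y - x0) + inner ℝ e (y - x0) -
      inner ℝ p0 (x1 - x0) - inner ℝ e (x1 - x0) := by
    rw [hyx, hp1, inner_sub_right _ (y - x0), inner_add_left, inner_add_left]; ring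
  have hρ0 : 0 ≤ ρ := hs0.trans hsρ
  have w0 : 0 ≤ ω (2 * ρ) := hω0 ▸ hω (le_refl (0 : ℝ)) (by simp [hρ0]) (by linarith)
  have hq : ∀ t T : ℝ, 0 ≤ t → t ≤ T → T ≤ 2 * ρ → ω t * t ≤ ω (2 * ρ) * T := fun t T a1 a2 a3 =>
    (mul_le_mul_of_nonneg_right (hω a1 (by simp [hρ0]) (a2.trans a3)) a1).trans
      (mul_le_mul_of_nonneg_left a2 w0)
  have q0 := hq _ _ (norm_nonneg _) hyρ (by linarith)
  have q1 := hq _ _ (norm_nonneg _) b3 le_rfl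
  have q2 := hq _ _ hs0 hsρ (by linarith)
  have q3 : 0 ≤ ‖e‖ * s := by positivity
  have q4 : 0 ≤ ω (2 * ρ) * ρ := by positivity
  rw [← hs'] at b2
  rw [inner_add_left, real_inner_smul_left]
  rcases abs_cases (inner ℝ e (y - x0)) with h | h
  · rw [h.1]; linarith [mul_nonneg (sub_nonneg.2 t2) h.2]
  · rw [h.1]; linarith [mul_nonneg (sub_nonneg.2 t1) (neg_nonneg.2 h.2.le)]

theorem holder2 {Ω : Set (E d)} {u : E d → ℝ} (hc : ContinuousOn u Ω)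
    (hs : ∀ φ : E d → ℝ, ContDiff ℝ 2 φ → ∀ z ∈ Ω, IsLocalMin (fun x => u x - φ x) z →
      infLap φ z ≤ 0) {c x0 x1 p0 p1 : E d} {R N ρ : ℝ} {ω : ℝ → ℝ}
    (hω : MonotoneOn ω (Set.Ici 0)) (hω0 : ω 0 = 0) (hR : 0 < R)
    (hΩ : ball c (2 * R) ⊆ Ω) (hx0 : x0 ∈ ball c R) (hx1 : x1 ∈ ball c R)
    (h0 : ∀ y ∈ ball c (2 * R), u x0 + inner ℝ p0 (y - x0) - ω ‖y - x0‖ * ‖y - x0‖ ≤ u y)
    (h1 : ∀ y ∈ ball c (2 * R), u x1 + inner ℝ p1 (y - x1) - ω ‖y - x1‖ * ‖y - x1‖ ≤ u y)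
    (n0 : ‖p0‖ ≤ N) (n1 : ‖p1‖ ≤ N) (hρ0 : 0 < ρ) (hρR : ρ ≤ R) (hsρ : ‖x1 - x0‖ ≤ ρ) :
    ‖p1 - p0‖ ^ 3 ≤ 10 ^ 6 * N ^ 2 * (N * (‖x1 - x0‖ / ρ) + ω (2 * ρ)) := by
  by_contra hcon
  push Not at hcon
  obtain ⟨e, he⟩ : ∃ e, e = p1 - p0 := ⟨_, rfl⟩
  obtain ⟨s, hs'⟩ : ∃ s, s = ‖x1 - x0‖ := ⟨_, rfl⟩
  rw [← he, ← hs'] at hcon
  rw [← hs'] at hsρ
  have hs0 : 0 ≤ s := by rw [hs']; exact norm_nonneg _
  have hN0 : 0 ≤ N := (norm_nonneg _).trans n0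
  have w0 : 0 ≤ ω (2 * ρ) := hω0 ▸ hω (le_refl (0 : ℝ)) (by simp [hρ0.le]) (by linarith)
  have ha2 : ‖e‖ ≤ 2 * N := by rw [he]; linarith [norm_sub_le p1 p0]
  have ha : 0 < ‖e‖ := by
    refine lt_of_le_of_ne (norm_nonneg _) fun h => ?_
    rw [← h] at hcon
    have : 0 ≤ 10 ^ 6 * N ^ 2 * (N * (s / ρ) + ω (2 * ρ)) := by positivity
    linarith
  have hN : 0 < N := by linarith
  obtain ⟨b, hb⟩ : ∃ b, b = ‖e‖ / N := ⟨_, rfl⟩
  have hab : ‖e‖ = b * N := by rw [hb]; field_simp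
  have hb0 : 0 < b := by rw [hb]; positivity
  have hb2 : b ≤ 2 := by rw [hb, div_le_iff₀ hN]; exact ha2
  have hbb : b ^ 2 ≤ 4 := by nlinarith
  have hb3 : b ^ 3 ≤ 8 := by nlinarith
  have hsb : 10 ^ 6 * (N * (s / ρ) + ω (2 * ρ)) < b ^ 3 * N := by
    rw [hab] at hcon
    refine lt_of_mul_lt_mul_left ?_ (pow_pos hN 2).le
    linarith [mul_pow b N 3]
  obtain ⟨m, hm⟩ : ∃ m, m = b ^ 3 * N / 10 ^ 5 := ⟨_, rfl⟩
  have hm0 : 0 < m := by rw [hm]; positivity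
  have hball : closedBall x0 ρ ⊆ ball c (2 * R) :=
    closedBall_subset_ball' (by rw [mem_ball] at hx0; linarith)
  have hδ : ‖e‖ * s + 3 * (ω (2 * ρ) * ρ) < m * ρ := by
    have a1 := mul_lt_mul_of_pos_right hsb hρ0
    have a2 : N * (s / ρ) * ρ = N * s := by field_simp
    have a3 := mul_le_mul_of_nonneg_right ha2 hs0
    have a4 : 0 ≤ N * s := by positivity
    have a5 : 0 ≤ ω (2 * ρ) * ρ := by positivity
    rw [hm]
    linarith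
  have key : ∀ τ : ℝ, 1 / 4 ≤ τ → τ ≤ 3 / 4 → |inner ℝ e (p0 + τ • e)| ≤ ‖e‖ ^ 2 / 7 := by
    intro τ t1 t2
    have hr : ‖p0 + τ • e‖ ≤ N := by
      have : p0 + τ • e = (1 - τ) • p0 + τ • p1 := by rw [he]; module
      rw [this]
      refine (norm_add_le _ _).trans ?_
      rw [norm_smul, norm_smul, Real.norm_eq_abs, Real.norm_eq_abs, abs_of_pos (by linarith),
        abs_of_pos (by linarith)]
      linarith [mul_le_mul_of_nonneg_left n0 (by linarith : 0 ≤ 1 - τ),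
        mul_le_mul_of_nonneg_left n1 (by linarith : 0 ≤ τ)]
    obtain ⟨β, Q, hQ0, c1, c2, c3⟩ := core (r := p0 + τ • e) hc hs hρ0 ha hm0 (hball.trans hΩ) hδ
      fun y hy => kink2 hω hω0 he hs' hsρ (by rwa [mem_closedBall, dist_eq_norm] at hy) t1 t2
        (h0 y (hball hy)) (h1 y (hball hy)) (h0 x1 (ball_subset_ball (by linarith) hx1))
    exact num hb0 hbb hb3 hN hab hm hQ0 c1 c2 (by linarith)
  have k1 := abs_le.1 (key (1 / 4) le_rfl (by norm_num))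
  have k2 := abs_le.1 (key (3 / 4) (by norm_num) le_rfl)
  rw [inner_add_right, inner_smul_right, real_inner_self_eq_norm_sq] at k1 k2
  have := pow_pos ha 2
  linarith [k1.1, k2.2]

theorem main2 {Ω : Set (E d)} {u : E d → ℝ} (hc : ContinuousOn u Ω)
    (hs : ∀ φ : E d → ℝ, ContDiff ℝ 2 φ → ∀ z ∈ Ω, IsLocalMin (fun x => u x - φ x) z →
      infLap φ z ≤ 0) {c : E d} {R M : ℝ} {ω : ℝ → ℝ} (hω : MonotoneOn ω (Set.Ici 0))
    (hω0 : ω 0 = 0) (hω1 : ContinuousWithinAt ω (Set.Ici 0) 0) (hR : 0 < R)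
    (hΩ : ball c (2 * R) ⊆ Ω) (hsc : OneSided (ball c (2 * R)) ω u)
    (hM : ∀ x ∈ ball c (2 * R), ∀ y ∈ ball c (2 * R), u y - u x ≤ M) :
    ∃ p : E d → E d, (∀ x ∈ ball c R, HasGradientAt u (p x) x) ∧ ContinuousOn p (ball c R) ∧
      ∀ x ∈ ball c R, ∀ y ∈ ball c R, ∀ ρ, 0 < ρ → ρ ≤ R → ‖x - y‖ ≤ ρ → ‖p x - p y‖ ^ 3 ≤
        10 ^ 6 * (M / R + ω R) ^ 2 * ((M / R + ω R) * (‖x - y‖ / ρ) + ω (2 * ρ)) := by
  choose! p hp using hsc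
  have hsub : ball c R ⊆ ball c (2 * R) := ball_subset_ball (by linarith)
  have hpos : ∀ t, 0 ≤ t → 0 ≤ ω t := fun t ht => hω0 ▸ hω (le_refl (0 : ℝ)) ht ht
  have hH : ∀ x ∈ ball c R, ∀ y ∈ ball c R, ∀ ρ, 0 < ρ → ρ ≤ R → ‖x - y‖ ≤ ρ → ‖p x - p y‖ ^ 3 ≤
      10 ^ 6 * (M / R + ω R) ^ 2 * ((M / R + ω R) * (‖x - y‖ / ρ) + ω (2 * ρ)) :=
    fun x hx y hy ρ h1 h2 h3 => holder2 hc hs hω hω0 hR hΩ hy hx (hp y (hsub hy)) (hp x (hsub hx))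
      (pbound2 hR (hpos R hR.le) hy (hp y (hsub hy)) hM)
      (pbound2 hR (hpos R hR.le) hx (hp x (hsub hx)) hM) h1 h2 h3
  generalize M / R + ω R = N at hH ⊢
  have hev : ∀ x ∈ ball c R, ∀ ε > 0, ∀ᶠ y in nhds x, ‖p y - p x‖ < ε ∧ ω ‖y - x‖ < ε := by
    intro x hx ε hε
    have hcw : ContinuousWithinAt (fun t => max (ω t) (10 ^ 6 * N ^ 2 * ω t)) (Set.Ici 0) 0 :=
      hω1.max (continuousWithinAt_const.mul hω1)
    obtain ⟨δ, hδ, hδ'⟩ := Metric.continuousWithinAt_iff.1 hcw (min ε (ε ^ 3)) (by positivity)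
    obtain ⟨ρ, hρ⟩ : ∃ ρ, ρ = min R (δ / 4) := ⟨_, rfl⟩
    have r0 : 0 < ρ := by rw [hρ]; positivity
    have r1 : ρ ≤ R := by rw [hρ]; exact min_le_left _ _
    have r2 : ρ ≤ δ / 4 := by rw [hρ]; exact min_le_right _ _
    have r3 := hδ' (x := 2 * ρ) (by simp [r0.le]) (by
      rw [Real.dist_eq, sub_zero, abs_of_pos (by positivity)]; linarith)
    simp only [hω0, mul_zero, max_self, Real.dist_eq, sub_zero] at r3
    have r4 := max_lt_iff.1 ((le_abs_self _).trans_lt r3)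
    have e1 : ∀ᶠ y in nhds x, 10 ^ 6 * N ^ 2 * (N * (‖y - x‖ / ρ) + ω (2 * ρ)) < ε ^ 3 :=
      ContinuousAt.eventually_lt (by fun_prop) continuousAt_const
        (by simpa using r4.2.trans_le (min_le_right _ _))
    have e2 : ∀ᶠ y in nhds x, ‖y - x‖ < ρ :=
      ContinuousAt.eventually_lt (by fun_prop) continuousAt_const (by simpa using r0)
    filter_upwards [e1, e2, isOpen_ball.mem_nhds hx] with y h1 h2 hy
    exact ⟨lt_of_pow_lt_pow_left₀ 3 hε.le ((hH y hy x hx ρ r0 r1 h2.le).trans_lt h1),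
      (hω (norm_nonneg _) (by simp [r0.le]) (by linarith)).trans_lt
        (r4.1.trans_le (min_le_left _ _))⟩
  refine ⟨p, fun x hx => ?_, fun x hx => ContinuousAt.continuousWithinAt ?_, hH⟩
  · rw [hasGradientAt_iff_isLittleO, Asymptotics.isLittleO_iff]
    intro ε hε
    filter_upwards [hev x hx (ε / 2) (by positivity), isOpen_ball.mem_nhds hx] with y h1 hy
    have h4 := hp x (hsub hx) y (hsub hy)
    have h5 := hp y (hsub hy) x (hsub hx)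
    have h6 := real_inner_le_norm (p y - p x) (y - x)
    rw [inner_sub_left] at h6
    rw [← neg_sub y x, inner_neg_right, norm_neg] at h5
    have h7 := norm_nonneg (y - x)
    have h8 := mul_le_mul_of_nonneg_right h1.2.le h7
    have h9 := mul_le_mul_of_nonneg_right h1.1.le h7
    have h10 := mul_nonneg hε.le h7
    rw [Real.norm_eq_abs, abs_le]
    constructor <;> linarith
  · rw [ContinuousAt, Metric.tendsto_nhds]
    intro ε hε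
    filter_upwards [hev x hx ε hε] with y hy
    rw [dist_eq_norm]
    exact hy.1

end Vale.Agent.P080
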