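import Vale.Agent.P080.Defs

namespace Vale.Agent.P080

open Metric

variable {d : ℕ}

noncomputable def phi (x0 r e : E d) (l m : ℝ) (y : E d) : ℝ :=
  inner ℝ r (y - x0) + l * (inner ℝ e (y - x0) * inner ℝ e (y - x0)) - m * inner ℝ (y - x0) (y - x0)

theorem phi_smooth (x0 r e : E d) (l m : ℝ) : ContDiff ℝ 2 (phi x0 r e l m) := by
  have h : ContDiff ℝ 2 fun y : E d => y - x0 := contDiff_id.sub contDiff_const
  exact ((contDiff_const.inner ℝ h).add (contDiff_const.mul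
    ((contDiff_const.inner ℝ h).mul (contDiff_const.inner ℝ h)))).sub
    (contDiff_const.mul (h.inner ℝ h))

theorem phi_grad (x0 r e : E d) (l m : ℝ) : gradient (phi x0 r e l m) =
    fun y => r + (2 * l * inner ℝ e (y - x0)) • e - (2 * m) • (y - x0) := by
  funext y
  have h : HasFDerivAt (fun y : E d => y - x0) (ContinuousLinearMap.id ℝ (E d)) y :=
    (hasFDerivAt_id y).sub_const x0
  have h1 := (hasFDerivAt_const r y).inner ℝ h
  have h2 := (hasFDerivAt_const e y).inner ℝ h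
  have h3 := h.inner ℝ h
  have h4 := (h1.add ((h2.mul h2).const_mul l)).sub (h3.const_mul m)
  refine HasGradientAt.gradient (hasGradientAt_iff_hasFDerivAt.2 ?_)
  refine HasFDerivAt.congr_fderiv h4 ?_
  ext v
  simp [inner_add_left, inner_sub_left, inner_smul_left, inner_sub_right, real_inner_comm]
  ring

theorem phi_lap (x0 r e : E d) (l m : ℝ) (z : E d) : infLap (phi x0 r e l m) z =
    2 * l * inner ℝ e (gradient (phi x0 r e l m) z) ^ 2 -
      2 * m * ‖gradient (phi x0 r e l m) z‖ ^ 2 := by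
  unfold infLap
  generalize hq : gradient (phi x0 r e l m) z = q
  rw [phi_grad]
  have h : HasFDerivAt (fun y : E d => y - x0) (ContinuousLinearMap.id ℝ (E d)) z :=
    (hasFDerivAt_id z).sub_const x0
  have h2 := (hasFDerivAt_const e z).inner ℝ h
  have h4 := (((h2.const_mul (2 * l)).smul_const e).const_add r).sub (h.const_smul (2 * m))
  have h5 := h4.fderiv
  have h6 : (fun y => r + (2 * l * inner ℝ e (y - x0)) • e - (2 * m) • (y - x0)) =
      ((fun y => r + (2 * l * inner ℝ e (y - x0)) • e) - (2 * m) • fun y : E d => y - x0) := rfl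
  rw [h6, h5]
  simp [inner_sub_left, inner_smul_left]
  ring

theorem core {Ω : Set (E d)} {u : E d → ℝ} (hc : ContinuousOn u Ω)
    (hs : ∀ φ : E d → ℝ, ContDiff ℝ 2 φ → ∀ z ∈ Ω, IsLocalMin (fun x => u x - φ x) z →
      infLap φ z ≤ 0) {x0 r e : E d} {ρ δ m : ℝ} (hρ : 0 < ρ) (he : 0 < ‖e‖) (hm : 0 < m)
    (hΩ : closedBall x0 ρ ⊆ Ω) (hδ : δ < m * ρ)
    (hg : ∀ y ∈ closedBall x0 ρ, |inner ℝ e (y - x0)| / 4 - δ ≤ u y - u x0 - inner ℝ r (y - x0)) :
    ∃ β Q : ℝ, 0 ≤ Q ∧ β ^ 2 ≤ 32 * m * ‖e‖ * Q ^ 2 ∧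
      |β - inner ℝ e r| ≤ ‖e‖ ^ 2 / 16 + 2 * m * ‖e‖ ∧ Q ≤ ‖r‖ + ‖e‖ / 16 + 2 * m := by
  obtain ⟨l, hl⟩ : ∃ l : ℝ, l = 1 / (32 * ‖e‖ * ρ) := ⟨_, rfl⟩
  have hl0 : 0 < l := by rw [hl]; positivity
  have hlρ : l * (‖e‖ * ρ) = 1 / 32 := by rw [hl]; field_simp
  have hφ := phi_smooth x0 r e l (m / ρ)
  obtain ⟨z, hz, hmin⟩ := (isCompact_closedBall x0 ρ).exists_isMinOn
    (f := fun x => u x - phi x0 r e l (m / ρ) x) ⟨x0, mem_closedBall_self hρ.le⟩
    ((hc.mono hΩ).sub hφ.continuous.continuousOn)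
  have hzρ : ‖z - x0‖ ≤ ρ := by rwa [mem_closedBall, dist_eq_norm] at hz
  have ht : |inner ℝ e (z - x0)| ≤ ‖e‖ * ρ :=
    (abs_real_inner_le_norm _ _).trans (mul_le_mul_of_nonneg_left hzρ he.le)
  have hlt : l * |inner ℝ e (z - x0)| ≤ 1 / 32 := by
    rw [← hlρ]; exact mul_le_mul_of_nonneg_left ht hl0.le
  have hzlt : ‖z - x0‖ < ρ := by
    refine lt_of_le_of_ne hzρ fun h => ?_
    have h1 : u z - phi x0 r e l (m / ρ) z ≤ u x0 - phi x0 r e l (m / ρ) x0 :=
      hmin (mem_closedBall_self hρ.le)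
    have h2 := hg z hz
    simp only [phi, sub_self, inner_zero_right, real_inner_self_eq_norm_sq, h] at h1
    have h3 : m / ρ * ρ ^ 2 = m * ρ := by field_simp
    have h4 := abs_mul_abs_self (inner ℝ e (z - x0))
    have h5 := mul_le_mul_of_nonneg_right hlt (abs_nonneg (inner ℝ e (z - x0)))
    have h6 := abs_nonneg (inner ℝ e (z - x0))
    rw [mul_assoc, h4] at h5
    nlinarith
  have hloc : IsLocalMin (fun x => u x - phi x0 r e l (m / ρ) x) z :=
    hmin.isLocalMin (closedBall_mem_nhds_of_mem (by rwa [mem_ball, dist_eq_norm]))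
  have h1 := hs _ hφ z (hΩ hz) hloc
  rw [phi_lap] at h1
  have hmz : m / ρ * ‖z - x0‖ ≤ m := by
    calc m / ρ * ‖z - x0‖ ≤ m / ρ * ρ := mul_le_mul_of_nonneg_left hzρ (by positivity)
      _ = m := by field_simp
  have hA : ‖(2 * l * inner ℝ e (z - x0)) • e‖ ≤ ‖e‖ / 16 := by
    rw [norm_smul, Real.norm_eq_abs, abs_mul, abs_of_pos (by positivity : 0 < 2 * l)]
    nlinarith
  have hB : ‖(2 * (m / ρ)) • (z - x0)‖ ≤ 2 * m := by
    rw [norm_smul, Real.norm_eq_abs, abs_of_pos (by positivity : 0 < 2 * (m / ρ))]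
    linarith
  refine ⟨inner ℝ e (gradient (phi x0 r e l (m / ρ)) z), ‖gradient (phi x0 r e l (m / ρ)) z‖,
    norm_nonneg _, ?_, ?_, ?_⟩
  · have h2 : m / ρ = l * (32 * m * ‖e‖) := by rw [hl]; field_simp
    generalize inner ℝ e (gradient (phi x0 r e l (m / ρ)) z) = β at h1 ⊢
    generalize ‖gradient (phi x0 r e l (m / ρ)) z‖ = Q at h1 ⊢
    rw [h2] at h1
    refine le_of_mul_le_mul_left ?_ hl0
    linarith
  · rw [phi_grad, ← inner_sub_right]
    refine (abs_real_inner_le_norm _ _).trans ?_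
    have h2 : r + (2 * l * inner ℝ e (z - x0)) • e - (2 * (m / ρ)) • (z - x0) - r =
        (2 * l * inner ℝ e (z - x0)) • e - (2 * (m / ρ)) • (z - x0) := by abel
    rw [h2]
    have h3 := (norm_sub_le _ _).trans (add_le_add hA hB)
    nlinarith [mul_le_mul_of_nonneg_left h3 he.le]
  · rw [phi_grad]
    exact (norm_sub_le _ _).trans (add_le_add ((norm_add_le _ _).trans (add_le_add le_rfl hA)) hB)

end Vale.Agent.P080
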